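import Vale.Agent.P126.Corol
import Vale.Agent.P126.Compose
import Vale.Agent.P126.Base
import Vale.Agent.P126.Final
import Vale.Agent.P126.Minimax
import Vale.Agent.P126.Iter
import Vale.Agent.P126.Abstr
import Vale.Agent.P126.Level
import Vale.Agent.P126.Cover
import Vale.Agent.P126.Polar
import Vale.Agent.P126.Tele
import Vale.Agent.P126.Nets
import Vale.Agent.P126.Dual
import Vale.Agent.P126.Half
import Vale.Agent.P126.Both

open Vale.Agent.P126

/-- Dimension-free duality of metric entropy, up to a power arbitrarily close to 1, with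
absolute constants; and with losses that are only powers of the logarithm of the entropy. -/
theorem Vale.Agent.Results.P126.PowerDuality.result :
    (∃ C : ℝ, 1 ≤ C ∧ ∀ (n : ℕ) (K L : Set (E n)), IsBody K → IsBody L → ∀ l : ℕ, 1 ≤ l →
      Real.log (coverNum K L) ≤ C * (l : ℝ) ^ 5 *
        Real.log (coverNum (polar L) (dil (C * l)⁻¹ (polar K))) ^ (1 + 1 / (l : ℝ)) ∧
      Real.log (coverNum (polar L) (dil (C * l) (polar K))) ≤ C * (l : ℝ) ^ 5 *
        Real.log (coverNum K L) ^ (1 + 1 / (l : ℝ))) ∧
    (∀ ε : ℝ, 0 < ε → ∃ a b : ℝ, 1 ≤ a ∧ 1 ≤ b ∧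
      ∀ (n : ℕ) (K L : Set (E n)), IsBody K → IsBody L →
        Real.log (coverNum K L) ≤
          b * Real.log (coverNum (polar L) (dil a⁻¹ (polar K))) ^ (1 + ε) ∧
        Real.log (coverNum (polar L) (dil a (polar K))) ≤
          b * Real.log (coverNum K L) ^ (1 + ε)) ∧
    (∃ C : ℝ, 1 ≤ C ∧ ∀ (n : ℕ) (K L : Set (E n)), IsBody K → IsBody L →
      ∀ s : ℝ, s = 1 + Real.log (1 + Real.log (coverNum K L)) →
      Real.log (coverNum K L) ≤
        C * s ^ 5 * Real.log (coverNum (polar L) (dil (C * s)⁻¹ (polar K))) ∧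
      Real.log (coverNum (polar L) (dil (C * s) (polar K))) ≤
        C * s ^ 5 * Real.log (coverNum K L)) :=
  CL.final Cov.cover_proof Pol.polar_proof
    (Bot.both_proof
      (HF.half_proof Tel.tele_proof Net.maxsep_proof Net.net_proof
        (LV.level_proof
          (AB.abstr_proof
            (IT.iter_proof (BS.base_proof MM.minimax_proof) CP.compose_proof FN.final_proof))
          Pol.polar_proof)
        Dua.dual_proof Cov.cover_proof Pol.polar_proof)
      Pol.polar_proof Cov.cover_proof)
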